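import Vale.Agent.P287.R2.H579.Classify
import Vale.Agent.P287.R2.H414.Maps

/-!
P287: the planes of cyclic cubic fourfolds (helper579, with helper809; the rational maps are
helper414's).
-/

namespace Vale.Agent.Results.P287.CyclicPlanes

open MvPolynomial Submodule Module
open Vale.Agent.P287.R2.H248 Vale.Agent.P287.R2.H414 Vale.Agent.P287.R2.H622
open Vale.Agent.P287.R2.H579

/-- `X = {F = 0}` contains two disjoint planes. -/
def TwoDisjoint (F : MvPolynomial (Fin 6) ℂ) : Prop :=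
  ∃ P Q, IsPlaneIn F P ∧ IsPlaneIn F Q ∧ Disjoint P Q

/-- `X = {F = 0}` contains at least `n` planes. -/
def AtLeast (F : MvPolynomial (Fin 6) ℂ) (n : ℕ) : Prop :=
  ∃ s : Finset (Submodule ℂ A6), n ≤ s.card ∧ ∀ P ∈ s, IsPlaneIn F P

variable {F : MvPolynomial (Fin 6) ℂ} {o : A6} {l : A6 →ₗ[ℂ] ℂ}

theorem rational_of_disjoint (hF : IsCubicFourfold F) (h : TwoDisjoint F) : IsRational F := by
  obtain ⟨P, Q, hP, hQ, hd⟩ := h
  exact rational_of_planes (pol_smooth hF) hP.1 hQ.1 ((pol_iso hF.1).mpr hP.2)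
    ((pol_iso hF.1).mpr hQ.2) hd (fun v => (pol_three hF.1 v).symm)

lemma exists_root : ∃ w : ℂ, w ^ 3 = 1 ∧ w ≠ 1 := by
  obtain ⟨z, hz⟩ := IsAlgClosed.exists_pow_nat_eq (-3 : ℂ) (n := 2) (by norm_num)
  have hw : ((-1 + z) / 2) ^ 2 + (-1 + z) / 2 + 1 = 0 := by linear_combination (1 / 4 : ℂ) * hz
  refine ⟨(-1 + z) / 2, by linear_combination ((-1 + z) / 2 - 1) * hw, fun h => ?_⟩
  rw [h] at hw
  norm_num at hw

/-- Two planes which do not meet on the fixed hyperplane. -/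
theorem two (hF : IsCubicFourfold F) (hc : IsCyclic F o l) {P Q : Submodule ℂ A6}
    (hP : IsPlaneIn F P) (hQ : IsPlaneIn F Q) (h : P ⊓ Q ⊓ LinearMap.ker l = ⊥) :
    TwoDisjoint F := by
  obtain ⟨w, hw, hw1⟩ := exists_root
  have hC := hc.cyc hF.1
  have hP' := (isPlaneIn_iff hF P).1 hP
  have hQ' := (isPlaneIn_iff hF Q).1 hQ
  rcases hC.disjoint_or (pol_smooth hF) hw hw1 hP' hQ' (fun v hv hv2 hv3 => by
    have h1 : v ∈ P ⊓ Q ⊓ LinearMap.ker l := ⟨⟨hv, hv2⟩, hv3⟩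
    rw [h] at h1
    exact (Submodule.mem_bot ℂ).1 h1) with h1 | h1
  · exact ⟨P, Q, hP, hQ, h1⟩
  · exact ⟨P, _, hP, (isPlaneIn_iff hF _).2 (hC.pl_map hw hQ'), h1⟩

/-- An Eckardt point of `X` lies on all planes of `X`. -/
def EckardtOnAll (F : MvPolynomial (Fin 6) ℂ) : Prop :=
  ∃ p, IsEckardt F p ∧ ∀ P, IsPlaneIn F P → p ∈ P

/-- A plane of the hyperplane `H = ker l` contains the traces on `H` of all planes of `X`. -/
def CoplanarTraces (F : MvPolynomial (Fin 6) ℂ) (l : A6 →ₗ[ℂ] ℂ) : Prop :=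
  ∃ W : Submodule ℂ A6, finrank ℂ W = 3 ∧ W ≤ LinearMap.ker l ∧
    ∀ P, IsPlaneIn F P → P ⊓ LinearMap.ker l ≤ W

/-- At least seven planes. -/
theorem seven (hF : IsCubicFourfold F) (hc : IsCyclic F o l) (h7 : AtLeast F 7)
    (h : ¬ TwoDisjoint F) : EckardtOnAll F ∨ CoplanarTraces F l := by
  have hV : finrank ℂ A6 = 6 := by simp [A6]
  have hC := hc.cyc hF.1
  have hno : ∀ P Q, Pl (pol F) P → Pl (pol F) Q → ¬ Disjoint P Q := fun P Q hP hQ hd =>
    h ⟨P, Q, (isPlaneIn_iff hF P).2 hP, (isPlaneIn_iff hF Q).2 hQ, hd⟩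
  obtain ⟨s, hs, hsF⟩ := h7
  have hs' : ∀ P ∈ s, Pl (pol F) P := fun P hP => (isPlaneIn_iff hF P).1 (hsF P hP)
  rcases hC.common_or hV (pol_smooth hF) hno s hs' (by omega) with
    ⟨p, hp0, hp, hps⟩ | ⟨W, hW, hWl, hWP⟩
  · left
    refine ⟨p, eckardt_of_pol hF.1 (hC.eckardt hV (pol_smooth hF) s hs' hs hp0 hp
      fun P hP => hps P (hs' P hP)), fun P hP => hps P ((isPlaneIn_iff hF P).1 hP)⟩
  · right
    exact ⟨W, hW, hWl, fun P hP => hWP P ((isPlaneIn_iff hF P).1 hP)⟩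

/-- Cyclic cubic fourfolds: two disjoint planes make them rational; they contain two disjoint
planes iff they contain two planes not meeting on the fixed hyperplane `H`; with at least seven
planes, iff neither an Eckardt point lies on all planes nor the traces on `H` are coplanar; with at
least ten planes the traces are not coplanar. -/
theorem result (F : MvPolynomial (Fin 6) ℂ) (hF : IsCubicFourfold F) (o : A6)
    (l : A6 →ₗ[ℂ] ℂ) (hc : IsCyclic F o l) :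
    (TwoDisjoint F → IsRational F) ∧
    (TwoDisjoint F ↔ ∃ P Q, IsPlaneIn F P ∧ IsPlaneIn F Q ∧ P ⊓ Q ⊓ LinearMap.ker l = ⊥) ∧
    (AtLeast F 7 → (TwoDisjoint F ↔ ¬ EckardtOnAll F ∧ ¬ CoplanarTraces F l)) ∧
    (AtLeast F 10 → ¬ CoplanarTraces F l) := by
  have hV : finrank ℂ A6 = 6 := by simp [A6]
  have hC := hc.cyc hF.1
  refine ⟨rational_of_disjoint hF, ⟨?_, ?_⟩, ?_, ?_⟩
  · rintro ⟨P, Q, hP, hQ, hd⟩
    exact ⟨P, Q, hP, hQ, by rw [hd.eq_bot, bot_inf_eq]⟩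
  · rintro ⟨P, Q, hP, hQ, h⟩
    exact two hF hc hP hQ h
  · intro h7
    constructor
    · rintro ⟨P, Q, hP, hQ, hd⟩
      refine ⟨?_, ?_⟩
      · rintro ⟨p, hp, hall⟩
        exact hp.1 (Submodule.disjoint_def.1 hd p (hall P hP) (hall Q hQ))
      · rintro ⟨W, hW, -, hall⟩
        exact hC.meet_of_traces hV (pol_smooth hF) ((isPlaneIn_iff hF P).1 hP)
          ((isPlaneIn_iff hF Q).1 hQ) hW (hall P hP) (hall Q hQ) hd
    · rintro ⟨hE, hW⟩
      by_contra hcon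
      rcases seven hF hc h7 hcon with h | h
      · exact hE h
      · exact hW h
  · rintro ⟨s, hs, hsF⟩ ⟨W, hW, hWl, hall⟩
    have := hC.card_le_nine hV (pol_smooth hF) s
      (fun P hP => (isPlaneIn_iff hF P).1 (hsF P hP)) hW hWl (fun P hP => hall P (hsF P hP))
    omega

end Vale.Agent.Results.P287.CyclicPlanes
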