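import Vale.Agent.P287.R2.H248.Final
import Vale.Agent.P287.R2.H248.Defs2
import Vale.Agent.P287.R2.H414.SumForms
import Vale.Agent.P287.R2.H622.Many
import Vale.Agent.P287.R2.H389.ThreePlanes
import Vale.Agent.P287.R2.H992.Disjoint28
import Vale.Agent.P287.R2.H248.Sharp

/-!
P287: cubic fourfolds with two disjoint planes. Owner helper389; assembled by helper248, with
helper414 (rational maps, counting, sums), helper622, helper11, helper62, helper992 (many planes),
helper114, helper946, helper697, helper847, helper579 (a line on a smooth cubic surface, sums,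
lines through a point, the sharp bound).
-/

namespace Vale.Agent.Results.P287.EckardtPlanes

open MvPolynomial Submodule Module
open Vale.Agent.P287.R2 Vale.Agent.P287.R2.H248

theorem criteria (F : MvPolynomial (Fin 6) ℂ) (hF : IsCubicFourfold F) :
    (Case1 F ∨ Case2 F ∨ Case3 F ∨ Case4 F ∨ Case5 F ∨ Case6 F →
      HasDisjointPlanes F ∧ IsRational F) ∧
    (HasDisjointPlanes F → ∃ s n a, (∀ P ∈ s, IsPlaneIn F P) ∧ disc s n a = 14) ∧
    (∀ p, IsEckardt F p → (∃ P, IsPlaneIn F P ∧ p ∈ P) ∧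
      ∀ P, IsPlaneIn F P → p ∉ P → ∃ Q, IsPlaneIn F Q ∧ p ∈ Q ∧ Disjoint P Q) := by
  refine ⟨fun h => ?_, fun h => ?_, fun p hp => ⟨eckardt_plane_through hF hp,
    fun P hP hpP => eckardt_plane_pt hF hp hP hpP⟩⟩
  · have key : HasDisjointPlanes F := by
      rcases h with ⟨p, P, hp, hP, hpP⟩ | ⟨p, q, hp, hq, hpq⟩ | ⟨P, Q, R, hP, hQ, hR, h2, h⟩ |
        ⟨s, hsF, h⟩ | ⟨A, B, h⟩ | ⟨s, n, a, hsF, hna⟩
      · exact eckardt_plane hF hp hP hpP
      · refine two_eckardt_points hF hp hq fun hm => ?_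
        obtain ⟨c, hc⟩ := mem_span_singleton.mp hm
        exact hpq c hc.symm
      · rcases H389.three_planes hF hP hQ hR h2 h with hd | hd
        · exact ⟨P, R, hP, hR, hd⟩
        · exact ⟨Q, R, hQ, hR, hd⟩
      · rcases h with h28 | ⟨h21, hm⟩
        · exact H992.disjoint_28 hF s h28 hsF
        · obtain ⟨P, hP, Q, hQ, hd⟩ := (H622.twenty_one hF s h21 hsF hm).1
          exact ⟨P, Q, hsF P hP, hsF Q hQ, hd⟩
      · exact H414.sum_forms hF h.1 h.2.1 h.2.2.1 h.2.2.2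
      · by_contra hcon
        exact hna (four_dvd_disc hcon s hsF n a)
    exact ⟨key, rational_of_disjoint hF key⟩
  · obtain ⟨s, hs, n, a, h14⟩ := disc_fourteen h
    exact ⟨s, n, a, hs, h14⟩

theorem result :
    (∀ F : MvPolynomial (Fin 6) ℂ, IsCubicFourfold F →
      (Case1 F ∨ Case2 F ∨ Case3 F ∨ Case4 F ∨ Case5 F ∨ Case6 F →
        HasDisjointPlanes F ∧ IsRational F) ∧
      (HasDisjointPlanes F → ∃ s n a, (∀ P ∈ s, IsPlaneIn F P) ∧ disc s n a = 14) ∧
      (∀ p, IsEckardt F p → (∃ P, IsPlaneIn F P ∧ p ∈ P) ∧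
        ∀ P, IsPlaneIn F P → p ∉ P → ∃ Q, IsPlaneIn F Q ∧ p ∈ Q ∧ Disjoint P Q)) ∧
    (∃ F, IsCubicFourfold F ∧
      (∃ s : Finset (Submodule ℂ A6), s.card = 27 ∧ ∀ P ∈ s, IsPlaneIn F P) ∧
      ¬ HasDisjointPlanes F) :=
  ⟨fun F hF => criteria F hF, sharp⟩

end Vale.Agent.Results.P287.EckardtPlanes
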